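import Vale.Agent.P157.Strict

/-!
# P157: the Ising perceptron, upper bounds on the free energy beyond the Jensen bound
-/

namespace Vale.Agent.Results.P157.BeyondAnnealed

open MeasureTheory ProbabilityTheory

/-- the law of `M` independent standard Gaussian vectors `g¹, …, g^M` in `ℝ^N` -/
noncomputable def disorder (M N : ℕ) : Measure (Fin M → Fin N → ℝ) :=
  Measure.pi fun _ => Measure.pi fun _ => gaussianReal 0 1

/-- the coordinate `±1` encoded by a bit; `{-1,1}^N` is encoded by `Fin N → Bool` -/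
def spin (b : Bool) : ℝ := if b then 1 else -1

/-- the pressure of the Ising perceptron with `M` patterns: `1/N` times the logarithm of the
average over the cube `{-1,1}^N` of `exp (∑ₐ f(gᵃ·x/√N))` -/
noncomputable def pressure (f : ℝ → ℝ) (M N : ℕ) (g : Fin M → Fin N → ℝ) : ℝ :=
  1 / N * Real.log ((∑ x : Fin N → Bool,
    Real.exp (∑ a, f ((∑ i, g a i * spin (x i)) / √N))) / 2 ^ N)

theorem result (f : ℝ → ℝ) (hf : Measurable f) (hb : ∃ B : ℝ, ∀ t, |f t| ≤ B) :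
    (∀ M N : ℕ, 0 < N → ∀ s : ℝ, 0 < s → s ≤ 1 →
      ∫ g, pressure f M N g ∂(disorder M N)
        ≤ (1 / s - 1) * Real.log 2
          + M / (s * N) * Real.log (∫ t, Real.exp (s * f t) ∂(gaussianReal 0 1))) ∧
    ((¬ ∃ c : ℝ, ∀ᵐ t ∂(gaussianReal 0 1), f t = c) →
      0 < Real.log (∫ t, Real.exp (f t) ∂(gaussianReal 0 1))
        - 2 * Real.log (∫ t, Real.exp (f t / 2) ∂(gaussianReal 0 1)) ∧
      ∀ α : ℝ, 0 < α →
        Real.log 2 < α * (Real.log (∫ t, Real.exp (f t) ∂(gaussianReal 0 1))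
          - 2 * Real.log (∫ t, Real.exp (f t / 2) ∂(gaussianReal 0 1))) →
        ∃ κ : ℝ, 0 < κ ∧ ∃ N₀ : ℕ, ∀ N : ℕ, N₀ ≤ N →
          ∫ g, pressure f ⌊α * N⌋₊ N g ∂(disorder ⌊α * N⌋₊ N)
            ≤ (⌊α * N⌋₊ : ℝ) / N * Real.log (∫ t, Real.exp (f t) ∂(gaussianReal 0 1)) - κ) := by
  obtain ⟨B, hB⟩ := hb
  refine ⟨fun M N hN s hs hs1 => Vale.Agent.P157.pressure_le hf hB hN hs hs1, fun hne =>
    ⟨Vale.Agent.P157.gap_pos hf hB hne, fun α hα0 hα =>
      Vale.Agent.P157.strict hf hB hα0 hα⟩⟩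

end Vale.Agent.Results.P157.BeyondAnnealed
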